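import Vale.Agent.P032.Six
import Vale.Agent.P032.Tree

/-! The Euclidean plane has no proper colouring with five colours. -/

namespace Vale.Agent.Results.P032.NotFive

theorem result (c : EuclideanSpace ℝ (Fin 2) → Fin 5) : ∃ x y, dist x y = 1 ∧ c x = c y :=
  Vale.Agent.P032.six_of Vale.Agent.P032.tree Vale.Agent.P032.clean c

end Vale.Agent.Results.P032.NotFive
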