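import Vale.Agent.P032.Trans
import Vale.Agent.P032.Open

/-! Colourings of the plane can be replaced by colourings with topologically tame classes. -/

namespace Vale.Agent.Results.P032.OpenClasses

theorem result (k : ℕ) (c : EuclideanSpace ℝ (Fin 2) → Fin k)
    (hc : ∀ x y, dist x y = 1 → c x ≠ c y) :
    ∃ C : Fin k → Set (EuclideanSpace ℝ (Fin 2)), (∀ i, IsOpen (C i)) ∧
      (∀ i, ∀ x ∈ C i, ∀ y ∈ C i, dist x y ≠ 1) ∧ (∀ i j, i ≠ j → Disjoint (C i) (C j)) ∧
      Dense (⋃ i, C i) := by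
  let e := Complex.orthonormalBasisOneI.repr
  obtain ⟨A, hA⟩ := Vale.Agent.P032.weak k (c ∘ e) fun x y h =>
    hc _ _ (by rw [e.dist_map, dist_eq_norm, h])
  obtain ⟨C, h1, h2, h3, h4⟩ := Vale.Agent.P032.openS k A hA
  refine ⟨fun i => e.symm ⁻¹' C i, fun i => (h1 i).preimage e.symm.continuous,
    fun i x hx y hy h => h2 i _ hx _ hy (by rw [← dist_eq_norm, e.symm.dist_map, h]),
    fun i j h => (h3 h).preimage _, ?_⟩
  rw [← Set.preimage_iUnion]
  exact h4.preimage e.symm.toHomeomorph.isOpenMap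

end Vale.Agent.Results.P032.OpenClasses
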