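import Vale.Agent.P032.Trans

/-! The chromatic number of the plane equals its measurable chromatic number. -/

namespace Vale.Agent.Results.P032.Transfer

open MeasureTheory

theorem result (k : ℕ) (c : EuclideanSpace ℝ (Fin 2) → Fin k)
    (hc : ∀ x y, dist x y = 1 → c x ≠ c y) :
    ∃ c' : EuclideanSpace ℝ (Fin 2) → Fin k, (∀ x y, dist x y = 1 → c' x ≠ c' y) ∧
      ∀ i, NullMeasurableSet (c' ⁻¹' {i}) volume :=
  Vale.Agent.P032.trans_of Vale.Agent.P032.weak k c hc

end Vale.Agent.Results.P032.Transfer
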